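import Vale.Agent.P207.N4.H77.Aff1
import Vale.Agent.P207.N4.H266.Metr
import Vale.Agent.P207.H469.Ball

/-!
# P207, theorem H: the rates in the charts from the rates of the unstable Jacobi tensor

`lrates_dyn` : if `exp (a t) ≤ Dt ≤ exp (b t)` for `t ≥ T` then the leaves are contracted in the past
at every rate `a' < a` in all derivatives on the whole disc, and expanded in the future at rate at
most `b`.
-/

open Set Filter Topology Metric MeasureTheory
open scoped ContDiff Nat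

set_option linter.unusedSectionVars false

noncomputable section

namespace Vale.Agent.P207.N4.H547.RatD

open Vale.Agent.P207.N3 Vale.Agent.P207.N3.H646 Vale.Agent.P207.H77
open Vale.Agent.P207.N4 Vale.Agent.P207.N4.H646 Vale.Agent.P207.N4.H77

variable [Dim]

variable {Γ X B : Type} [Group Γ] [MetricSpace X] [ProperSpace X] [MulAction Γ X]
  [IsIsometricSMul Γ X] [TopologicalSpace B] [CompactSpace B] [T2Space B] [MulAction Γ B]
  [ContinuousConstSMul Γ B]

variable {L : Leaf Γ X B}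

theorem Dt_inverse (t : ℝ) (x : X) :
    Dt L t x = Ring.inverse (fderiv ℝ (L.τ (L.φ t x) x) 0) := by
  have h1 : fderiv ℝ (L.τ (L.φ t x) x) 0 = Dt L (-t) (L.φ t x) := by
    unfold Dt
    rw [L.φ_neg]
  have h2 : Dt L (-t) (L.φ t x) * Dt L t x = 1 := Dt_neg_comp L t x
  have h3 : Dt L t x * Dt L (-t) (L.φ t x) = 1 := by
    have := Dt_comp_neg L t (L.φ t x)
    rwa [L.φ_neg] at this
  rw [h1]
  let u : (E2 →L[ℝ] E2)ˣ := ⟨Dt L (-t) (L.φ t x), Dt L t x, h2, h3⟩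
  have h4 : Ring.inverse (u : E2 →L[ℝ] E2) = ((u⁻¹ : (E2 →L[ℝ] E2)ˣ) : E2 →L[ℝ] E2) :=
    Ring.inverse_unit u
  exact h4.symm

/-- the unstable Jacobi tensor: `(Dt v)' = U (Dt v)` -/
theorem hasDerivAt_Dt (M : Metr L) (x : X) (t : ℝ) :
    HasDerivAt (fun s => Dt L s x) (M.U (L.φ t x) ∘L Dt L t x) t := by
  have h1 : fderiv ℝ (L.τ (L.φ t x) x) 0 = Dt L (-t) (L.φ t x) := by
    unfold Dt
    rw [L.φ_neg]
  have h2 : Dt L (-t) (L.φ t x) * Dt L t x = 1 := Dt_neg_comp L t x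
  have h3 : Dt L t x * Dt L (-t) (L.φ t x) = 1 := by
    have := Dt_comp_neg L t (L.φ t x)
    rwa [L.φ_neg] at this
  let u : (E2 →L[ℝ] E2)ˣ := ⟨Dt L (-t) (L.φ t x), Dt L t x, h2, h3⟩
  have h4 := hasFDerivAt_ringInverse (𝕜 := ℝ) (R := E2 →L[ℝ] E2) u
  have h5 : (u : E2 →L[ℝ] E2) = fderiv ℝ (L.τ (L.φ t x) x) 0 := h1.symm
  rw [h5] at h4
  have h6 := h4.comp_hasDerivAt t (M.jac x t)
  have h7 : (Ring.inverse ∘ fun s => fderiv ℝ (L.τ (L.φ s x) x) 0) = fun s => Dt L s x := by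
    funext s
    exact (Dt_inverse s x).symm
  rw [h7] at h6
  refine h6.congr_deriv ?_
  refine ContinuousLinearMap.ext fun w => ?_
  show -(Dt L t x (-(fderiv ℝ (L.τ (L.φ t x) x) 0 (M.U (L.φ t x) (Dt L t x w))))) =
    M.U (L.φ t x) (Dt L t x w)
  rw [map_neg, neg_neg, h1]
  have h8 := congrArg (fun A : E2 →L[ℝ] E2 => A (M.U (L.φ t x) (Dt L t x w))) h3
  exact h8

theorem Dt_le (M : Metr L) {b : ℝ} (hb : ∀ x v, inner ℝ (M.U x v) v ≤ b * ‖v‖ ^ 2) (x : X)
    {t : ℝ} (ht : 0 ≤ t) (v : E2) : ‖Dt L t x v‖ ≤ Real.exp (b * t) * ‖v‖ := by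
  have hd : ∀ s, HasDerivAt (fun s => Dt L s x v) (M.U (L.φ s x) (Dt L s x v)) s := fun s =>
    ((ContinuousLinearMap.apply ℝ E2 v).hasFDerivAt.comp_hasDerivAt s (hasDerivAt_Dt M x s))
  have hg : ∀ s, HasDerivAt (fun s => ‖Dt L s x v‖ ^ 2 * Real.exp (-2 * b * s))
      ((2 * inner ℝ (Dt L s x v) (M.U (L.φ s x) (Dt L s x v))) * Real.exp (-2 * b * s) +
        ‖Dt L s x v‖ ^ 2 * (Real.exp (-2 * b * s) * (-2 * b))) s := by
    intro s
    have h1 := (hd s).norm_sq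
    have h2 : HasDerivAt (fun s : ℝ => Real.exp (-2 * b * s)) (Real.exp (-2 * b * s) * (-2 * b)) s := by
      have := ((hasDerivAt_id s).const_mul (-2 * b)).exp
      simpa using this
    exact h1.mul h2
  have hmono : Antitone fun s => ‖Dt L s x v‖ ^ 2 * Real.exp (-2 * b * s) := by
    refine antitone_of_deriv_nonpos (fun s => (hg s).differentiableAt) fun s => ?_
    rw [(hg s).deriv]
    have h3 := hb (L.φ s x) (Dt L s x v)
    rw [real_inner_comm] at h3
    have h4 := Real.exp_pos (-2 * b * s)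
    nlinarith
  have h5 := hmono ht
  simp only [mul_zero, Real.exp_zero, mul_one, Dt_zero] at h5
  have h6 : ‖Dt L t x v‖ ^ 2 ≤ (Real.exp (b * t) * ‖v‖) ^ 2 := by
    have h7 : Real.exp (-2 * b * t) * Real.exp (b * t) ^ 2 = 1 := by
      rw [← Real.exp_nat_mul, ← Real.exp_add, Real.exp_eq_one_iff]
      push_cast; ring
    have h8 : ‖Dt L t x v‖ ^ 2 = (‖Dt L t x v‖ ^ 2 * Real.exp (-2 * b * t)) *
        Real.exp (b * t) ^ 2 := by rw [mul_assoc, h7, mul_one]
    rw [h8, mul_pow, mul_comm (Real.exp (b * t) ^ 2)]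
    gcongr
    exact h5
  exact le_of_sq_le_sq h6 (by positivity)

theorem Dt_ge (M : Metr L) {a : ℝ} (ha : ∀ x v, a * ‖v‖ ^ 2 ≤ inner ℝ (M.U x v) v) (x : X)
    {t : ℝ} (ht : 0 ≤ t) (v : E2) : Real.exp (a * t) * ‖v‖ ≤ ‖Dt L t x v‖ := by
  have hd : ∀ s, HasDerivAt (fun s => Dt L s x v) (M.U (L.φ s x) (Dt L s x v)) s := fun s =>
    ((ContinuousLinearMap.apply ℝ E2 v).hasFDerivAt.comp_hasDerivAt s (hasDerivAt_Dt M x s))
  have hg : ∀ s, HasDerivAt (fun s => ‖Dt L s x v‖ ^ 2 * Real.exp (-2 * a * s))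
      ((2 * inner ℝ (Dt L s x v) (M.U (L.φ s x) (Dt L s x v))) * Real.exp (-2 * a * s) +
        ‖Dt L s x v‖ ^ 2 * (Real.exp (-2 * a * s) * (-2 * a))) s := by
    intro s
    have h1 := (hd s).norm_sq
    have h2 : HasDerivAt (fun s : ℝ => Real.exp (-2 * a * s)) (Real.exp (-2 * a * s) * (-2 * a)) s := by
      have := ((hasDerivAt_id s).const_mul (-2 * a)).exp
      simpa using this
    exact h1.mul h2
  have hmono : Monotone fun s => ‖Dt L s x v‖ ^ 2 * Real.exp (-2 * a * s) := by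
    refine monotone_of_deriv_nonneg (fun s => (hg s).differentiableAt) fun s => ?_
    rw [(hg s).deriv]
    have h3 := ha (L.φ s x) (Dt L s x v)
    rw [real_inner_comm] at h3
    have h4 := Real.exp_pos (-2 * a * s)
    nlinarith
  have h5 := hmono ht
  simp only [mul_zero, Real.exp_zero, mul_one, Dt_zero] at h5
  have h6 : (Real.exp (a * t) * ‖v‖) ^ 2 ≤ ‖Dt L t x v‖ ^ 2 := by
    have h7 : Real.exp (-2 * a * t) * Real.exp (a * t) ^ 2 = 1 := by
      rw [← Real.exp_nat_mul, ← Real.exp_add, Real.exp_eq_one_iff]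
      push_cast; ring
    have h8 : ‖Dt L t x v‖ ^ 2 = (‖Dt L t x v‖ ^ 2 * Real.exp (-2 * a * t)) *
        Real.exp (a * t) ^ 2 := by rw [mul_assoc, h7, mul_one]
    rw [h8, mul_pow, mul_comm (Real.exp (a * t) ^ 2)]
    gcongr
    exact h5
  exact le_of_sq_le_sq h6 (norm_nonneg _)

theorem ep_smul' (g : Γ) (x : X) : L.ep (g • x) = g • L.ep x := by
  rw [L.ep_flip, L.ep_flip, L.flip_smul, L.em_smul]

variable (L) in
/-- the change of the frame on one horosphere is bounded -/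
theorem frame_bound : ∃ C : ℝ, 0 ≤ C ∧ ∀ x z, L.em z = L.em x → L.lv z = L.lv x →
    ∀ w ∈ closedBall (0 : E2) 1, L.e x w = L.ep z →
      ‖fderiv ℝ (L.τ x z) w‖ ≤ C ∧ ‖fderiv ℝ (L.τ z x) 0‖ ≤ C := by
  obtain ⟨K, hK, hK'⟩ := L.cocompact
  obtain ⟨R, hR⟩ := L.near 0
  have hK2 : IsCompact (Metric.cthickening (max R 0) K) := hK.cthickening
  set D : Set ((X × X) × E2) := ((K ×ˢ Metric.cthickening (max R 0) K) ×ˢ closedBall 0 1) ∩
    {p | L.em p.1.2 = L.em p.1.1 ∧ L.e p.1.1 p.2 = L.ep p.1.2} with hD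
  have hepc : Continuous L.ep := by
    have : L.ep = fun x => L.em (L.flip x) := funext L.ep_flip
    rw [this]
    exact L.em_cont.comp L.flip_cont
  have hsub1 : closedBall (0 : E2) 1 ⊆ closedBall 0 3 := closedBall_subset_closedBall (by norm_num)
  have hDc : IsCompact D := by
    have hc0 : IsCompact ((K ×ˢ Metric.cthickening (max R 0) K) ×ˢ closedBall (0 : E2) 1) :=
      (hK.prod hK2).prod (isCompact_closedBall _ _)
    have hcl1 : IsClosed {p : (X × X) × E2 | L.em p.1.2 = L.em p.1.1} :=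
      isClosed_eq (L.em_cont.comp (continuous_snd.comp continuous_fst))
        (L.em_cont.comp (continuous_fst.comp continuous_fst))
    have hce : ContinuousOn (fun p : (X × X) × E2 => L.e p.1.1 p.2)
        ((K ×ˢ Metric.cthickening (max R 0) K) ×ˢ closedBall (0 : E2) 1) :=
      L.e_cont.comp (by fun_prop : Continuous fun p : (X × X) × E2 => (p.1.1, p.2)).continuousOn
        fun p hp => ⟨mem_univ _, hsub1 hp.2⟩
    have hcl2 : IsClosed (((K ×ˢ Metric.cthickening (max R 0) K) ×ˢ closedBall (0 : E2) 1) ∩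
        (fun p : (X × X) × E2 => (L.e p.1.1 p.2, L.ep p.1.2)) ⁻¹' {b : B × B | b.1 = b.2}) :=
      (hce.prodMk (hepc.comp (continuous_snd.comp continuous_fst)).continuousOn
        ).preimage_isClosed_of_isClosed hc0.isClosed (isClosed_eq continuous_fst continuous_snd)
    have hDe : D = (((K ×ˢ Metric.cthickening (max R 0) K) ×ˢ closedBall (0 : E2) 1) ∩
        {p | L.em p.1.2 = L.em p.1.1}) ∩
        (((K ×ˢ Metric.cthickening (max R 0) K) ×ˢ closedBall (0 : E2) 1) ∩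
        (fun p : (X × X) × E2 => (L.e p.1.1 p.2, L.ep p.1.2)) ⁻¹' {b : B × B | b.1 = b.2}) := by
      ext p
      simp only [hD, mem_inter_iff, Set.mem_ofPred_eq, mem_preimage]
      tauto
    rw [hDe]
    exact (hc0.inter_right hcl1).inter_right hcl2
  have hz3 : (0 : E2) ∈ ball (0 : E2) 3 := mem_ball_self (by norm_num)
  have hw3 : closedBall (0 : E2) 1 ⊆ ball 0 3 := closedBall_subset_ball (by norm_num)
  have c1 : ContinuousOn (fun p : (X × X) × E2 => iteratedFDeriv ℝ 1 (tau L.e p.1.1 p.1.2) p.2) D := by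
    refine (L.tau_cont 1).mono fun p hp => ⟨hp.2.1.symm, hw3 hp.1.2, 0, hz3, ?_⟩
    rw [L.e_zero]
    exact hp.2.2.symm
  have c2 : ContinuousOn (fun p : (X × X) × E2 => iteratedFDeriv ℝ 1 (tau L.e p.1.2 p.1.1) 0) D := by
    refine (L.tau_cont 1).comp (f := fun p : (X × X) × E2 => (((p.1.2, p.1.1), 0) : (X × X) × E2))
      (by fun_prop) fun p hp => ⟨hp.2.1, hz3, p.2, hw3 hp.1.2, ?_⟩
    change L.e p.1.1 p.2 = L.e p.1.2 0
    rw [L.e_zero]
    exact hp.2.2
  obtain ⟨C1, hC1⟩ := hDc.exists_bound_of_continuousOn c1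
  obtain ⟨C2, hC2⟩ := hDc.exists_bound_of_continuousOn c2
  refine ⟨max (max C1 C2) 0, le_max_right _ _, fun x z hem hlv w hw he => ?_⟩
  obtain ⟨g, hg⟩ := hK' x
  have hem' : L.em (g • z) = L.em (g • x) := by rw [L.em_smul, L.em_smul, hem]
  have he' : L.e (g • x) w = L.ep (g • z) := by
    rw [L.e_smul g x w (hsub1 hw), he, ep_smul']
  have hne : (L.e x '' closedBall 0 3 ∩ L.e z '' closedBall 0 3).Nonempty :=
    ⟨L.e x w, ⟨w, hsub1 hw, rfl⟩, 0, ball_subset_closedBall hz3, by rw [L.e_zero, he]⟩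
  have hdist : dist x z ≤ R := hR x z hem.symm (by rw [hlv]; simp) hne
  have hmem : g • z ∈ Metric.cthickening (max R 0) K := by
    refine Metric.mem_cthickening_of_dist_le (g • z) (g • x) _ _ hg ?_
    rw [dist_smul, dist_comm]
    exact hdist.trans (le_max_left _ _)
  have hp : (((g • x, g • z), w) : (X × X) × E2) ∈ D := ⟨⟨⟨hg, hmem⟩, hw⟩, hem', he'⟩
  have b1 := hC1 _ hp
  have b2 := hC2 _ hp
  rw [norm_iteratedFDeriv_one] at b1 b2
  have hdm : w ∈ L.dm x z := mem_dm_of L (hw3 hw) hz3 (by rw [L.e_zero, he])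
  have hdm' : (0 : E2) ∈ L.dm z x := mem_dm_of L hz3 (hw3 hw) (by rw [L.e_zero, he])
  have e1 : fderiv ℝ (tau L.e (g • x) (g • z)) w = fderiv ℝ (L.τ x z) w :=
    (tau_smul_eventually L hdm).fderiv_eq
  have e2 : fderiv ℝ (tau L.e (g • z) (g • x)) 0 = fderiv ℝ (L.τ z x) 0 :=
    (tau_smul_eventually L hdm').fderiv_eq
  change ‖fderiv ℝ (tau L.e (g • x) (g • z)) w‖ ≤ C1 at b1
  change ‖fderiv ℝ (tau L.e (g • z) (g • x)) 0‖ ≤ C2 at b2
  rw [e1] at b1
  rw [e2] at b2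
  exact ⟨b1.trans ((le_max_left _ _).trans (le_max_left _ _)),
    b2.trans ((le_max_right _ _).trans (le_max_left _ _))⟩

/-- the contraction in the past at a point of the smaller disc -/
theorem point_le {a C₀ : ℝ} (hc : ∀ z : X, ∀ s : ℝ, 0 ≤ s →
    ‖fderiv ℝ (L.τ (L.φ s z) z) 0‖ ≤ C₀ * Real.exp (-a * s)) {C : ℝ}
    (hC : ∀ x z, L.em z = L.em x → L.lv z = L.lv x →
    ∀ w ∈ closedBall (0 : E2) 1, L.e x w = L.ep z →
      ‖fderiv ℝ (L.τ x z) w‖ ≤ C ∧ ‖fderiv ℝ (L.τ z x) 0‖ ≤ C) (x : X) {s : ℝ} (hs : 0 ≤ s)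
    {w w' : E2} (hw : w ∈ closedBall (0 : E2) 1) (hw' : w' ∈ closedBall (0 : E2) 1)
    (h : L.e (L.φ s x) w = L.e x w') :
    ‖fderiv ℝ (L.τ (L.φ s x) x) w‖ ≤ C * (C₀ * Real.exp (-a * s)) * C := by
  have hw3 : closedBall (0 : E2) 1 ⊆ ball 0 3 := closedBall_subset_ball (by norm_num)
  have hw3' : closedBall (0 : E2) 1 ⊆ closedBall 0 3 :=
    closedBall_subset_closedBall (by norm_num)
  have hz3 : (0 : E2) ∈ ball (0 : E2) 3 := mem_ball_self (by norm_num)
  have hne : L.em x ≠ L.e x w' := (L.e_ne x w' (hw3' hw')).symm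
  obtain ⟨z', h1, h2, h3⟩ := L.exists_frame (L.em x) (L.e x w') hne (L.lv (L.φ s x))
  set z := L.φ (-s) z' with hz
  have hφz : L.φ s z = z' := φ_back L s z'
  have hemz : L.em z = L.em x := by rw [hz, L.em_φ, h1]
  have hepz : L.ep z = L.e x w' := by rw [hz, L.ep_φ, h2]
  have hlvz : L.lv z = L.lv x := by
    rw [hz, L.lv_φ, h3, L.lv_φ]
    ring
  have hemz' : L.em z' = L.em (L.φ s x) := by rw [h1, L.em_φ]
  have k1 := (hC (L.φ s x) z' hemz' h3 w hw (by rw [h, h2])).1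
  have k2 := (hC x z hemz hlvz w' hw' hepz.symm).2
  have k3 := hc z s hs
  rw [hφz] at k3
  -- the chain
  have d1 : w ∈ L.dm (L.φ s x) z' := mem_dm_of L (hw3 hw) hz3 (by rw [L.e_zero, h, h2])
  have t1 : L.τ (L.φ s x) z' w = 0 :=
    tau_of L (ball_subset_closedBall hz3) (by rw [L.e_zero, h, h2])
  have d2 : (0 : E2) ∈ L.dm z' z := mem_dm_of L hz3 hz3 (by rw [L.e_zero, L.e_zero, h2, hepz])
  have t2 : L.τ z' z 0 = 0 :=
    tau_of L (ball_subset_closedBall hz3) (by rw [L.e_zero, L.e_zero, h2, hepz])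
  have d3 : (0 : E2) ∈ L.dm z x := mem_dm_of L hz3 (hw3 hw') (by rw [L.e_zero, hepz])
  have em1 : L.em (L.φ s x) = L.em z' := hemz'.symm
  have em2 : L.em z' = L.em z := by rw [hemz, h1]
  have d12 := tau_comp L d1 (by rw [t1]; exact d2)
  have f1 := fderiv_tau_comp L em1 em2 d1 (by rw [t1]; exact d2)
  have t12 : L.τ (L.φ s x) z w = 0 := by rw [← d12.2, t1, t2]
  have f2 := fderiv_tau_comp L (em1.trans em2) hemz d12.1 (by rw [t12]; exact d3)
  rw [t12, f1, t1] at f2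
  rw [f2]
  have hC0 : 0 ≤ C := (norm_nonneg _).trans k1
  have hC0' : 0 ≤ C₀ * Real.exp (-a * s) := (norm_nonneg _).trans k3
  calc ‖(fderiv ℝ (L.τ z x) 0).comp ((fderiv ℝ (L.τ z' z) 0).comp
        (fderiv ℝ (L.τ (L.φ s x) z') w))‖
      ≤ ‖fderiv ℝ (L.τ z x) 0‖ * (‖fderiv ℝ (L.τ z' z) 0‖ *
        ‖fderiv ℝ (L.τ (L.φ s x) z') w‖) :=
        (ContinuousLinearMap.opNorm_comp_le _ _).trans
          (mul_le_mul_of_nonneg_left (ContinuousLinearMap.opNorm_comp_le _ _) (norm_nonneg _))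
    _ ≤ C * ((C₀ * Real.exp (-a * s)) * C) := by gcongr
    _ = _ := by ring

/-- **the contraction in the past at rate `a`, first derivative, on the whole disc** -/
theorem con_one {a C₀ : ℝ} (hC₀ : 0 ≤ C₀) (hc : ∀ z : X, ∀ s : ℝ, 0 ≤ s →
    ‖fderiv ℝ (L.τ (L.φ s z) z) 0‖ ≤ C₀ * Real.exp (-a * s)) :
    ∃ C : ℝ, 0 < C ∧ ∀ x, ∀ t ≥ L.t1, ∀ u ∈ ball (0 : E2) 3,
      ‖fderiv ℝ (tau L.e (L.φ t x) x) u‖ ≤ C * Real.exp (-a * t) := by
  obtain ⟨C, hC0, hC⟩ := frame_bound L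
  obtain ⟨C₁, hC₁⟩ := L.contract 1 le_rfl
  set C₂ : ℝ := max (C₁ * Real.exp (-L.χ * L.t1)) 0 with hC₂
  have hC₂0 : 0 ≤ C₂ := le_max_right _ _
  refine ⟨C * C * C₂ * C₀ * Real.exp (a * L.t1) + 1, by positivity, fun x t ht u hu => ?_⟩
  set s := t - L.t1 with hs
  have hs0 : 0 ≤ s := by linarith
  set y := L.φ s x with hy
  have hty : L.φ t x = L.φ L.t1 y := by
    rw [hy, ← L.φ_add, hs]
    congr 1
    ring
  have hyb : L.φ (-L.t1) (L.φ L.t1 y) = y := L.φ_neg _ _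
  -- the first step
  have d1 : u ∈ L.dm (L.φ t x) y := by
    have := mem_dm_back L (le_refl L.t1) (L.φ L.t1 y) hu
    rwa [hyb, ← hty] at this
  have hw : L.τ (L.φ t x) y u ∈ ball (0 : E2) 1 := by
    have := pm_mem L (le_refl L.t1) (L.φ L.t1 y) hu
    unfold pm at this
    rwa [hyb, ← hty] at this
  set w := L.τ (L.φ t x) y u with hwd
  have hew : L.e y w = L.e (L.φ t x) u := e_tau L d1
  -- the image in the disc of `x`
  obtain ⟨w', hw', hw'e⟩ := L.engulf x t ht (mem_image_of_mem _ (ball_subset_closedBall hu))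
  have hyw : L.e y w = L.e x w' := by rw [hew, hw'e]
  have d2 : w ∈ L.dm y x := mem_dm_of L (ball_subset_ball (by norm_num) hw)
    (ball_subset_ball (by norm_num) hw') hyw
  have em1 : L.em (L.φ t x) = L.em y := by rw [hy, L.em_φ, L.em_φ]
  have em2 : L.em y = L.em x := by rw [hy, L.em_φ]
  have f1 := fderiv_tau_comp L em1 em2 d1 d2
  have k1 : ‖fderiv ℝ (L.τ (L.φ t x) y) u‖ ≤ C₂ := by
    have := hC₁ y L.t1 le_rfl u hu
    rw [norm_iteratedFDeriv_one, ← hty] at this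
    exact this.trans (le_max_left _ _)
  have k2 := point_le hc hC x hs0 (ball_subset_closedBall hw) (ball_subset_closedBall hw') hyw
  change ‖fderiv ℝ (L.τ (L.φ t x) x) u‖ ≤ _
  rw [f1]
  have h5 : Real.exp (-a * s) = Real.exp (a * L.t1) * Real.exp (-a * t) := by
    rw [← Real.exp_add, hs]
    congr 1
    ring
  calc ‖(fderiv ℝ (L.τ y x) w).comp (fderiv ℝ (L.τ (L.φ t x) y) u)‖
      ≤ ‖fderiv ℝ (L.τ y x) w‖ * ‖fderiv ℝ (L.τ (L.φ t x) y) u‖ :=
        ContinuousLinearMap.opNorm_comp_le _ _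
    _ ≤ (C * (C₀ * Real.exp (-a * s)) * C) * C₂ := by gcongr
    _ = C * C * C₂ * C₀ * Real.exp (a * L.t1) * Real.exp (-a * t) := by
        rw [h5]
        ring
    _ ≤ (C * C * C₂ * C₀ * Real.exp (a * L.t1) + 1) * Real.exp (-a * t) := by
        gcongr
        linarith

theorem isInv_smooth (x : X) {t : ℝ} (ht : L.t1 ≤ t) :
    ContDiffOn ℝ ∞ (tau L.e (L.φ t x) x) (ball 0 3) := by
  refine (L.tau_smooth (L.φ t x) x (L.em_φ t x)).mono fun u hu => ?_
  have := mem_dm_back L ht (L.φ t x) hu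
  rwa [L.φ_neg] at this

/-- **the rates** in the charts, from the rates at the centres -/
theorem lrates_centre {a b a' C₀ C₁ : ℝ} (ha0 : 0 < a') (h : a' < a) (hab : a' ≤ b)
    (hC₀ : 0 ≤ C₀) (hc : ∀ z : X, ∀ s : ℝ, 0 ≤ s →
      ‖fderiv ℝ (L.τ (L.φ s z) z) 0‖ ≤ C₀ * Real.exp (-a * s))
    (hhi : ∀ x, ∀ t ≥ L.t1, ‖Dt L t x‖ ≤ C₁ * Real.exp (b * t)) : LRates L a' b := by
  refine ⟨ha0, hab, fun k hk => ?_, C₁, hhi⟩
  · obtain ⟨C, hC0, hC⟩ := con_one hC₀ hc
    have ha : 0 < a := ha0.trans h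
    choose Ck hCk using fun j : ℕ => L.contract (j + 1) (Nat.le_add_left 1 j)
    set ε : ℝ := 1 - a' / a with hε
    have hε0 : 0 < ε := by
      have : a' / a < 1 := by rwa [div_lt_one ha]
      linarith
    obtain ⟨i, rfl⟩ : ∃ i, k = i + 1 := ⟨k - 1, by omega⟩
    obtain ⟨K, hK, H⟩ := Vale.Agent.P207.H469.exists_interp_full.{0} (R := 3) (by norm_num) i hε0
      (fun j => C⁻¹ * max (Ck j) 0)
    refine ⟨C * K, fun x t ht u hu => ?_⟩
    have ht0 : 0 ≤ t := L.t1_pos.le.trans ht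
    set f := tau L.e (L.φ t x) x with hf
    have hfs : ContDiffOn ℝ ∞ f (ball 0 3) := isInv_smooth x ht
    have hfd : ContDiffOn ℝ ∞ (fderiv ℝ f) (ball 0 3) :=
      hfs.fderiv_of_isOpen isOpen_ball (by simp)
    have hZ : ContDiffOn ℝ ∞ (fun y => C⁻¹ • fderiv ℝ f y) (ball 0 3) := hfd.const_smul _
    have hder : ∀ j, ∀ y ∈ ball (0 : E2) 3, iteratedFDeriv ℝ j (fun y => C⁻¹ • fderiv ℝ f y) y =
        C⁻¹ • iteratedFDeriv ℝ j (fderiv ℝ f) y := fun j y hy =>
      iteratedFDeriv_const_smul_apply' (((hfd.contDiffAt (isOpen_ball.mem_nhds hy))).of_le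
        (by exact_mod_cast le_top))
    have hexp : Real.exp (-L.χ * t) ≤ 1 := by
      rw [Real.exp_le_one_iff]
      have := L.χ_pos
      nlinarith
    have hb : ∀ j, ∀ y ∈ ball (0 : E2) 3,
        ‖iteratedFDeriv ℝ j (fun y => C⁻¹ • fderiv ℝ f y) y‖ ≤ C⁻¹ * max (Ck j) 0 := by
      intro j y hy
      rw [hder j y hy, norm_smul, norm_inv, Real.norm_eq_abs, abs_of_pos hC0,
        norm_iteratedFDeriv_fderiv]
      gcongr
      refine (hCk j x t ht y hy).trans ?_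
      calc Ck j * Real.exp (-L.χ * t) ≤ max (Ck j) 0 * Real.exp (-L.χ * t) := by
            gcongr
            exact le_max_left _ _
        _ ≤ max (Ck j) 0 * 1 := by gcongr
        _ = _ := mul_one _
    have hρ : Real.exp (-a * t) ≤ 1 := by
      rw [Real.exp_le_one_iff]
      nlinarith
    have h1 := H E2 (E2 →L[ℝ] E2) (fun y => C⁻¹ • fderiv ℝ f y) hZ hb (Real.exp (-a * t))
      (Real.exp_pos _) hρ (fun y hy => by
        rw [norm_smul, norm_inv, Real.norm_eq_abs, abs_of_pos hC0, inv_mul_le_iff₀ hC0]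
        exact hC x t ht y hy) u hu
    rw [hder i u hu, norm_smul, norm_inv, Real.norm_eq_abs, abs_of_pos hC0,
      norm_iteratedFDeriv_fderiv, inv_mul_le_iff₀ hC0, ← Real.exp_mul] at h1
    have h2 : -a * t * (1 - ε) = -a' * t := by
      rw [hε]
      field_simp
      ring
    rw [h2] at h1
    calc _ ≤ C * (K * Real.exp (-a' * t)) := h1
      _ = _ := by ring

/-- the second fundamental form is bounded -/
theorem U_bdd (M : Metr L) : ∃ c : ℝ, 0 ≤ c ∧ ∀ x v, inner ℝ (M.U x v) v ≤ c * ‖v‖ ^ 2 := by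
  obtain ⟨K, hK, hK'⟩ := L.cocompact
  obtain ⟨c, hc⟩ := hK.exists_bound_of_continuousOn M.U_cont.continuousOn
  refine ⟨max c 0, le_max_right _ _, fun x v => ?_⟩
  obtain ⟨g, hg⟩ := hK' x
  have h1 : ‖M.U x‖ ≤ c := by
    rw [← M.U_smul g x]
    exact hc _ hg
  calc inner ℝ (M.U x v) v ≤ ‖M.U x v‖ * ‖v‖ := real_inner_le_norm _ _
    _ ≤ (‖M.U x‖ * ‖v‖) * ‖v‖ := by gcongr; exact (M.U x).le_opNorm v
    _ ≤ (max c 0 * ‖v‖) * ‖v‖ := by gcongr; exact h1.trans (le_max_left _ _)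
    _ = _ := by ring

/-- **the rates in the charts, from the rates of the unstable Jacobi tensor for large times** -/
theorem lrates_dyn (M : Metr L) {a b T a' : ℝ} (ha0 : 0 < a') (h : a' < a) (hab : a' ≤ b)
    (hr : ∀ t, T ≤ t → ∀ x v, Real.exp (a * t) * ‖v‖ ≤ ‖Dt L t x v‖ ∧
      ‖Dt L t x v‖ ≤ Real.exp (b * t) * ‖v‖) : LRates L a' b := by
  have ha : 0 < a := ha0.trans h
  have hb : 0 < b := ha0.trans_le hab
  obtain ⟨c, hc0, hc⟩ := U_bdd M
  have hz : ∀ x v, (0 : ℝ) * ‖v‖ ^ 2 ≤ inner ℝ (M.U x v) v := by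
    intro x v
    rw [zero_mul]
    rcases eq_or_ne v 0 with rfl | hv
    · simp
    · exact (M.U_pos x v hv).le
  refine lrates_centre (a := a) (C₀ := Real.exp (a * max T 0)) (C₁ := Real.exp (c * max T 0))
    ha0 h hab (Real.exp_pos _).le (fun z s hs => ?_) (fun x t ht => ?_)
  · refine ContinuousLinearMap.opNorm_le_bound _ (by positivity) fun w => ?_
    have h1 : fderiv ℝ (L.τ (L.φ s z) z) 0 = Dt L (-s) (L.φ s z) := by
      unfold Dt
      rw [L.φ_neg]
    have h2 := Dt_comp_neg L s (L.φ s z)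
    rw [L.φ_neg] at h2
    have h3 : Dt L s z (fderiv ℝ (L.τ (L.φ s z) z) 0 w) = w := by
      rw [h1]
      exact DFunLike.congr_fun h2 w
    rcases le_total T s with hT | hT
    · have h4 := (hr s hT z (fderiv ℝ (L.τ (L.φ s z) z) 0 w)).1
      rw [h3] at h4
      have h5 : Real.exp (-a * s) * Real.exp (a * s) = 1 := by
        rw [← Real.exp_add]
        simp
      have h6 : (1 : ℝ) ≤ Real.exp (a * max T 0) :=
        Real.one_le_exp (mul_nonneg ha.le (le_max_right _ _))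
      calc ‖fderiv ℝ (L.τ (L.φ s z) z) 0 w‖
          = Real.exp (-a * s) * (Real.exp (a * s) * ‖fderiv ℝ (L.τ (L.φ s z) z) 0 w‖) := by
            rw [← mul_assoc, h5, one_mul]
        _ ≤ 1 * Real.exp (-a * s) * ‖w‖ := by
            rw [one_mul]
            gcongr
        _ ≤ Real.exp (a * max T 0) * Real.exp (-a * s) * ‖w‖ := by gcongr
    · have h4 := Dt_ge M hz z hs (fderiv ℝ (L.τ (L.φ s z) z) 0 w)
      rw [h3, zero_mul, Real.exp_zero, one_mul] at h4
      have h6 : (1 : ℝ) ≤ Real.exp (a * max T 0) * Real.exp (-a * s) := by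
        rw [← Real.exp_add]
        refine Real.one_le_exp ?_
        have : s ≤ max T 0 := hT.trans (le_max_left _ _)
        nlinarith
      exact h4.trans (le_mul_of_one_le_left (norm_nonneg _) h6)
  · have ht0 : 0 ≤ t := L.t1_pos.le.trans ht
    have h6 : (1 : ℝ) ≤ Real.exp (c * max T 0) :=
      Real.one_le_exp (mul_nonneg hc0 (le_max_right _ _))
    refine ContinuousLinearMap.opNorm_le_bound _ (by positivity) fun v => ?_
    rcases le_total T t with hT | hT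
    · refine (hr t hT x v).2.trans ?_
      have h7 : Real.exp (b * t) ≤ Real.exp (c * max T 0) * Real.exp (b * t) :=
        le_mul_of_one_le_left (Real.exp_pos _).le h6
      gcongr
    · refine (Dt_le M hc x ht0 v).trans ?_
      have h7 : Real.exp (c * t) ≤ Real.exp (c * max T 0) * Real.exp (b * t) := by
        rw [← Real.exp_add]
        refine Real.exp_le_exp.2 ?_
        have h8 : t ≤ max T 0 := hT.trans (le_max_left _ _)
        have h9 : 0 ≤ b * t := by positivity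
        nlinarith
      gcongr

end Vale.Agent.P207.N4.H547.RatD
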