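import Vale.Agent.P207.N4.H77.RatesV
import Vale.Agent.P207.N4.H534.Clock
import Vale.Agent.P207.N4.H547.RatD

/-!
# P207, theorem P: the rates with a clock in the charts, from the rates of the unstable Jacobi tensor

`lratesV_of` : if `exp ((a + sl) σ) ≤ Dt ≤ exp ((b - sl) σ)` for `t ≥ T`, where `σ` is the clock,
then the leaves are contracted in the past at the rate `a`, in all derivatives on the whole disc,
measured with the clock of the centre of the disc.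
-/

open Set Filter Topology Metric MeasureTheory
open scoped ContDiff Nat

set_option linter.unusedSectionVars false

noncomputable section

namespace Vale.Agent.P207.N4.H77V

open Vale.Agent.P207.N3 Vale.Agent.P207.N3.H646 Vale.Agent.P207.H77
open Vale.Agent.P207.N4 Vale.Agent.P207.N4.H646 Vale.Agent.P207.N4.H77
open Vale.Agent.P207.N4.H547.RatD Vale.Agent.P207.N4.Clock

variable [Dim]

variable {Γ X B : Type} [Group Γ] [MetricSpace X] [ProperSpace X] [MulAction Γ X]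
  [IsIsometricSMul Γ X] [TopologicalSpace B] [CompactSpace B] [T2Space B] [MulAction Γ B]
  [ContinuousConstSMul Γ B]

variable {L : Leaf Γ X B} {c : X → ℝ} {c₀ c₁ : ℝ}

/-- the flip of a frame of the same horosphere is the stable holonomy of the flip, up to a
rotation -/
theorem flip_hol {y z : X} (hem : L.em z = L.em y) (hlv : L.lv z = L.lv y) :
    ∃ r, L.flip z = L.rot r (L.hol (L.ep z) (L.flip y)) := by
  have h1 : L.ep (L.flip y) = L.em y := by rw [L.ep_flip, L.flip_flip]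
  have hne : L.ep z ≠ L.ep (L.flip y) := by
    rw [h1, ← hem]
    exact (L.em_ne_ep z).symm
  have h2 := L.hol_em _ _ hne
  have h3 := L.hol_ep _ _ hne
  have h4 := L.hol_lp _ _ hne
  set w := L.hol (L.ep z) (L.flip y) with hw
  obtain ⟨r, hr⟩ := L.frame_unique (L.flip w) z
    (by rw [← L.ep_flip, h3, h1, hem]) (by rw [L.ep_flip (L.flip w), L.flip_flip, h2])
    (by rw [h4, L.flip_flip, hlv])
  refine ⟨r, ?_⟩
  rw [hr, L.flip_rot, L.flip_flip]

/-- **the clocks of the frames of one horosphere, over the past** -/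
theorem sg_near (hK : Ok L c c₀ c₁) {η : ℝ} (hη : 0 < η) : ∃ C : ℝ, 0 ≤ C ∧ ∀ x z : X, ∀ s : ℝ,
    0 ≤ s → L.em z = L.em x → L.lv z = L.lv x → ∀ w ∈ closedBall (0 : E2) 1,
    L.e (L.φ s x) w = L.ep z → |sg L c s z - sg L c s x| ≤ η * sg L c s x + C := by
  obtain ⟨K, hKc, hK'⟩ := L.cocompact
  set Q : Set (B × X) := (fun p : X × E2 => (L.e p.1 p.2, L.flip p.1)) ''
    (K ×ˢ closedBall (0 : E2) 1) with hQ
  have hsub1 : closedBall (0 : E2) 1 ⊆ closedBall 0 3 := closedBall_subset_closedBall (by norm_num)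
  have hQc : IsCompact Q := by
    refine (hKc.prod (isCompact_closedBall _ _)).image_of_continuousOn ?_
    refine ContinuousOn.prodMk ?_ (L.flip_cont.comp continuous_fst).continuousOn
    exact L.e_cont.mono fun p hp => ⟨mem_univ _, hsub1 hp.2⟩
  have hQne : ∀ p ∈ Q, p.1 ≠ L.ep p.2 := by
    rintro _ ⟨p, hp, rfl⟩
    show L.e p.1 p.2 ≠ L.ep (L.flip p.1)
    rw [L.ep_flip, L.flip_flip]
    exact L.e_ne p.1 p.2 (hsub1 hp.2)
  obtain ⟨C, hC⟩ := L.hol_asym Q hQc hQne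
  obtain ⟨C', hC'0, hC'⟩ := near_fut hK (mul_pos hη hK.pos) L.χ_pos C
  refine ⟨C', hC'0, fun x z s hs hem hlv w hw he => ?_⟩
  set y := L.φ s x with hy
  set z' := L.φ s z with hz'
  have hem' : L.em z' = L.em y := by rw [hz', hy, L.em_φ, L.em_φ, hem]
  have hlv' : L.lv z' = L.lv y := by rw [hz', hy, L.lv_φ, L.lv_φ, hlv]
  have hep' : L.ep z' = L.e y w := by rw [hz', L.ep_φ, he]
  obtain ⟨r, hr⟩ := flip_hol hem' hlv'
  have h1 : sg L c s z = sg L c s (L.hol (L.ep z') (L.flip y)) := by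
    rw [← sg_flip hK.flip s z, ← hz', hr, sg_rot hK.rot]
  have h2 : sg L c s x = sg L c s (L.flip y) := by
    rw [← sg_flip hK.flip s x]
  have hd : ∀ u, 0 ≤ u → dist (L.φ u (L.flip y)) (L.φ u (L.hol (L.ep z') (L.flip y))) ≤
      C * Real.exp (-L.χ * u) := by
    intro u hu
    obtain ⟨g, hg⟩ := hK' y
    have hne : L.e y w ≠ L.ep (L.flip y) := by
      rw [L.ep_flip, L.flip_flip]
      exact L.e_ne y w (hsub1 hw)
    have k1 := hC (L.e (g • y) w, L.flip (g • y)) ⟨(g • y, w), ⟨hg, hw⟩, rfl⟩ u hu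
    have k2 : L.hol (L.e (g • y) w) (L.flip (g • y)) = g • L.hol (L.e y w) (L.flip y) := by
      rw [L.e_smul g y w (hsub1 hw), L.flip_smul, L.hol_smul g _ _ hne]
    change dist (L.φ u (L.flip (g • y))) (L.φ u (L.hol (L.e (g • y) w) (L.flip (g • y)))) ≤ _ at k1
    rw [k2, L.flip_smul, L.φ_smul, L.φ_smul, dist_smul] at k1
    rw [hep']
    exact k1
  have h3 := hC' (L.flip y) (L.hol (L.ep z') (L.flip y)) s hs fun u hu _ => hd u hu
  have h4 := absorb hK (mul_pos hη hK.pos).le hs x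
  have h5 : η * c₀ / c₀ = η := by
    field_simp [hK.pos.ne']
  rw [h5] at h4
  rw [h1, abs_sub_comm]
  nth_rewrite 1 [h2]
  linarith

/-- the contraction in the past at a point of the smaller disc -/
theorem point_leV {a₁ C₀ : ℝ} (ha₁ : 0 ≤ a₁) (hc : ∀ z : X, ∀ s : ℝ, 0 ≤ s →
    ‖fderiv ℝ (L.τ (L.φ s z) z) 0‖ ≤ C₀ * Real.exp (-a₁ * sg L c s z)) {C : ℝ}
    (hC : ∀ x z, L.em z = L.em x → L.lv z = L.lv x →
    ∀ w ∈ closedBall (0 : E2) 1, L.e x w = L.ep z →
      ‖fderiv ℝ (L.τ x z) w‖ ≤ C ∧ ‖fderiv ℝ (L.τ z x) 0‖ ≤ C) {η C' : ℝ}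
    (hC' : ∀ x z : X, ∀ s : ℝ,
    0 ≤ s → L.em z = L.em x → L.lv z = L.lv x → ∀ w ∈ closedBall (0 : E2) 1,
    L.e (L.φ s x) w = L.ep z → |sg L c s z - sg L c s x| ≤ η * sg L c s x + C')
    (x : X) {s : ℝ} (hs : 0 ≤ s)
    {w w' : E2} (hw : w ∈ closedBall (0 : E2) 1) (hw' : w' ∈ closedBall (0 : E2) 1)
    (h : L.e (L.φ s x) w = L.e x w') :
    ‖fderiv ℝ (L.τ (L.φ s x) x) w‖ ≤
      C * (C₀ * (Real.exp (a₁ * C') * Real.exp (-(a₁ * (1 - η)) * sg L c s x))) * C := by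
  have hw3 : closedBall (0 : E2) 1 ⊆ ball 0 3 := closedBall_subset_ball (by norm_num)
  have hw3' : closedBall (0 : E2) 1 ⊆ closedBall 0 3 :=
    closedBall_subset_closedBall (by norm_num)
  have hz3 : (0 : E2) ∈ ball (0 : E2) 3 := mem_ball_self (by norm_num)
  have hne : L.em x ≠ L.e x w' := (L.e_ne x w' (hw3' hw')).symm
  obtain ⟨z', h1, h2, h3⟩ := L.exists_frame (L.em x) (L.e x w') hne (L.lv (L.φ s x))
  set z := L.φ (-s) z' with hz
  have hφz : L.φ s z = z' := φ_back L s z'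
  have hemz : L.em z = L.em x := by rw [hz, L.em_φ, h1]
  have hepz : L.ep z = L.e x w' := by rw [hz, L.ep_φ, h2]
  have hlvz : L.lv z = L.lv x := by
    rw [hz, L.lv_φ, h3, L.lv_φ]
    ring
  have hemz' : L.em z' = L.em (L.φ s x) := by rw [h1, L.em_φ]
  have k1 := (hC (L.φ s x) z' hemz' h3 w hw (by rw [h, h2])).1
  have k2 := (hC x z hemz hlvz w' hw' hepz.symm).2
  have k3 := hc z s hs
  rw [hφz] at k3
  have k4 := hC' x z s hs hemz hlvz w hw (by rw [h, hepz])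
  have hC0 : 0 ≤ C := (norm_nonneg _).trans k1
  have hC₀ : 0 ≤ C₀ := by
    have h5 := (norm_nonneg _).trans k3
    exact nonneg_of_mul_nonneg_left h5 (Real.exp_pos _)
  have k5 : Real.exp (-a₁ * sg L c s z) ≤
      Real.exp (a₁ * C') * Real.exp (-(a₁ * (1 - η)) * sg L c s x) := by
    rw [← Real.exp_add]
    refine Real.exp_le_exp.2 ?_
    have h6 := (abs_le.1 k4).1
    nlinarith
  -- the chain
  have d1 : w ∈ L.dm (L.φ s x) z' := mem_dm_of L (hw3 hw) hz3 (by rw [L.e_zero, h, h2])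
  have t1 : L.τ (L.φ s x) z' w = 0 :=
    tau_of L (ball_subset_closedBall hz3) (by rw [L.e_zero, h, h2])
  have d2 : (0 : E2) ∈ L.dm z' z := mem_dm_of L hz3 hz3 (by rw [L.e_zero, L.e_zero, h2, hepz])
  have t2 : L.τ z' z 0 = 0 :=
    tau_of L (ball_subset_closedBall hz3) (by rw [L.e_zero, L.e_zero, h2, hepz])
  have d3 : (0 : E2) ∈ L.dm z x := mem_dm_of L hz3 (hw3 hw') (by rw [L.e_zero, hepz])
  have em1 : L.em (L.φ s x) = L.em z' := hemz'.symm
  have em2 : L.em z' = L.em z := by rw [hemz, h1]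
  have d12 := tau_comp L d1 (by rw [t1]; exact d2)
  have f1 := fderiv_tau_comp L em1 em2 d1 (by rw [t1]; exact d2)
  have t12 : L.τ (L.φ s x) z w = 0 := by rw [← d12.2, t1, t2]
  have f2 := fderiv_tau_comp L (em1.trans em2) hemz d12.1 (by rw [t12]; exact d3)
  rw [t12, f1, t1] at f2
  rw [f2]
  have k6 : ‖fderiv ℝ (L.τ z' z) 0‖ ≤
      C₀ * (Real.exp (a₁ * C') * Real.exp (-(a₁ * (1 - η)) * sg L c s x)) :=
    k3.trans (mul_le_mul_of_nonneg_left k5 hC₀)
  have hC0' : 0 ≤ C₀ * (Real.exp (a₁ * C') * Real.exp (-(a₁ * (1 - η)) * sg L c s x)) :=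
    (norm_nonneg _).trans k6
  calc ‖(fderiv ℝ (L.τ z x) 0).comp ((fderiv ℝ (L.τ z' z) 0).comp
        (fderiv ℝ (L.τ (L.φ s x) z') w))‖
      ≤ ‖fderiv ℝ (L.τ z x) 0‖ * (‖fderiv ℝ (L.τ z' z) 0‖ *
        ‖fderiv ℝ (L.τ (L.φ s x) z') w‖) :=
        (ContinuousLinearMap.opNorm_comp_le _ _).trans
          (mul_le_mul_of_nonneg_left (ContinuousLinearMap.opNorm_comp_le _ _) (norm_nonneg _))
    _ ≤ C * ((C₀ * (Real.exp (a₁ * C') * Real.exp (-(a₁ * (1 - η)) * sg L c s x))) * C) := by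
        gcongr
    _ = _ := by ring

/-- **the contraction in the past, first derivative, on the whole disc** -/
theorem con_oneV (hK : Ok L c c₀ c₁) {a₁ a₂ C₀ : ℝ} (ha₂ : 0 < a₂) (h21 : a₂ < a₁) (hC₀ : 0 ≤ C₀)
    (hc : ∀ z : X, ∀ s : ℝ, 0 ≤ s →
    ‖fderiv ℝ (L.τ (L.φ s z) z) 0‖ ≤ C₀ * Real.exp (-a₁ * sg L c s z)) :
    ∃ C : ℝ, 0 < C ∧ ∀ x, ∀ t ≥ L.t1, ∀ u ∈ ball (0 : E2) 3,
      ‖fderiv ℝ (tau L.e (L.φ t x) x) u‖ ≤ C * Real.exp (-a₂ * sg L c t x) := by
  have ha₁ : 0 < a₁ := ha₂.trans h21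
  obtain ⟨C, hC0, hC⟩ := frame_bound L
  obtain ⟨C₁, hC₁⟩ := L.contract 1 le_rfl
  have hη : 0 < 1 - a₂ / a₁ := by
    have : a₂ / a₁ < 1 := by rwa [div_lt_one ha₁]
    linarith
  obtain ⟨C', hC'0, hC'⟩ := sg_near hK hη
  have hae : a₁ * (1 - (1 - a₂ / a₁)) = a₂ := by
    field_simp
    ring
  set C₂ : ℝ := max (C₁ * Real.exp (-L.χ * L.t1)) 0 with hC₂
  have hC₂0 : 0 ≤ C₂ := le_max_right _ _
  refine ⟨C * C * C₂ * C₀ * Real.exp (a₁ * C') * Real.exp (a₂ * (c₁ * L.t1)) + 1, by positivity,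
    fun x t ht u hu => ?_⟩
  set s := t - L.t1 with hs
  have hs0 : 0 ≤ s := by linarith
  set y := L.φ s x with hy
  have hty : L.φ t x = L.φ L.t1 y := by
    rw [hy, ← L.φ_add, hs]
    congr 1
    ring
  have hyb : L.φ (-L.t1) (L.φ L.t1 y) = y := L.φ_neg _ _
  -- the first step
  have d1 : u ∈ L.dm (L.φ t x) y := by
    have := mem_dm_back L (le_refl L.t1) (L.φ L.t1 y) hu
    rwa [hyb, ← hty] at this
  have hw : L.τ (L.φ t x) y u ∈ ball (0 : E2) 1 := by
    have := pm_mem L (le_refl L.t1) (L.φ L.t1 y) hu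
    unfold pm at this
    rwa [hyb, ← hty] at this
  set w := L.τ (L.φ t x) y u with hwd
  have hew : L.e y w = L.e (L.φ t x) u := e_tau L d1
  -- the image in the disc of `x`
  obtain ⟨w', hw', hw'e⟩ := L.engulf x t ht (mem_image_of_mem _ (ball_subset_closedBall hu))
  have hyw : L.e y w = L.e x w' := by rw [hew, hw'e]
  have d2 : w ∈ L.dm y x := mem_dm_of L (ball_subset_ball (by norm_num) hw)
    (ball_subset_ball (by norm_num) hw') hyw
  have em1 : L.em (L.φ t x) = L.em y := by rw [hy, L.em_φ, L.em_φ]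
  have em2 : L.em y = L.em x := by rw [hy, L.em_φ]
  have f1 := fderiv_tau_comp L em1 em2 d1 d2
  have k1 : ‖fderiv ℝ (L.τ (L.φ t x) y) u‖ ≤ C₂ := by
    have := hC₁ y L.t1 le_rfl u hu
    rw [norm_iteratedFDeriv_one, ← hty] at this
    exact this.trans (le_max_left _ _)
  have k2 := point_leV ha₁.le hc hC hC' x hs0 (ball_subset_closedBall hw)
    (ball_subset_closedBall hw') hyw
  rw [hae] at k2
  change ‖fderiv ℝ (L.τ (L.φ t x) x) u‖ ≤ _
  rw [f1]
  have h5 : Real.exp (-a₂ * sg L c s x) ≤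
      Real.exp (a₂ * (c₁ * L.t1)) * Real.exp (-a₂ * sg L c t x) := by
    rw [← Real.exp_add]
    refine Real.exp_le_exp.2 ?_
    have h6 := sg_sub_hi hK (show s ≤ t by linarith [L.t1_pos]) x
    have h7 : t - s = L.t1 := by rw [hs]; ring
    rw [h7] at h6
    nlinarith
  have hE := Real.exp_pos (-a₂ * sg L c t x)
  calc ‖(fderiv ℝ (L.τ y x) w).comp (fderiv ℝ (L.τ (L.φ t x) y) u)‖
      ≤ ‖fderiv ℝ (L.τ y x) w‖ * ‖fderiv ℝ (L.τ (L.φ t x) y) u‖ :=
        ContinuousLinearMap.opNorm_comp_le _ _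
    _ ≤ (C * (C₀ * (Real.exp (a₁ * C') * Real.exp (-a₂ * sg L c s x))) * C) * C₂ := by gcongr
    _ ≤ (C * (C₀ * (Real.exp (a₁ * C') * (Real.exp (a₂ * (c₁ * L.t1)) *
        Real.exp (-a₂ * sg L c t x)))) * C) * C₂ := by gcongr
    _ = C * C * C₂ * C₀ * Real.exp (a₁ * C') * Real.exp (a₂ * (c₁ * L.t1)) *
        Real.exp (-a₂ * sg L c t x) := by ring
    _ ≤ (C * C * C₂ * C₀ * Real.exp (a₁ * C') * Real.exp (a₂ * (c₁ * L.t1)) + 1) *
        Real.exp (-a₂ * sg L c t x) := by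
        gcongr
        linarith

/-- the higher derivatives -/
theorem conV (hK : Ok L c c₀ c₁) {a a₂ C : ℝ} (ha : 0 < a) (h : a < a₂) (hC0 : 0 < C)
    (hC : ∀ x, ∀ t ≥ L.t1, ∀ u ∈ ball (0 : E2) 3,
      ‖fderiv ℝ (tau L.e (L.φ t x) x) u‖ ≤ C * Real.exp (-a₂ * sg L c t x)) (k : ℕ) (hk : 1 ≤ k) :
    ∃ C, ∀ x, ∀ t ≥ L.t1, ∀ u ∈ ball (0 : E2) 3,
    ‖iteratedFDeriv ℝ k (tau L.e (L.φ t x) x) u‖ ≤ C * Real.exp (-a * sg L c t x) := by
  have ha₂ : 0 < a₂ := ha.trans h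
  choose Ck hCk using fun j : ℕ => L.contract (j + 1) (Nat.le_add_left 1 j)
  set ε : ℝ := 1 - a / a₂ with hε
  have hε0 : 0 < ε := by
    have : a / a₂ < 1 := by rwa [div_lt_one ha₂]
    linarith
  obtain ⟨i, rfl⟩ : ∃ i, k = i + 1 := ⟨k - 1, by omega⟩
  obtain ⟨K, hK1, H⟩ := Vale.Agent.P207.H469.exists_interp_full.{0} (R := 3) (by norm_num) i hε0
    (fun j => C⁻¹ * max (Ck j) 0)
  refine ⟨C * K, fun x t ht u hu => ?_⟩
  have ht0 : 0 ≤ t := L.t1_pos.le.trans ht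
  set f := tau L.e (L.φ t x) x with hf
  have hfs : ContDiffOn ℝ ∞ f (ball 0 3) := isInv_smooth x ht
  have hfd : ContDiffOn ℝ ∞ (fderiv ℝ f) (ball 0 3) :=
    hfs.fderiv_of_isOpen isOpen_ball (by simp)
  have hZ : ContDiffOn ℝ ∞ (fun y => C⁻¹ • fderiv ℝ f y) (ball 0 3) := hfd.const_smul _
  have hder : ∀ j, ∀ y ∈ ball (0 : E2) 3, iteratedFDeriv ℝ j (fun y => C⁻¹ • fderiv ℝ f y) y =
      C⁻¹ • iteratedFDeriv ℝ j (fderiv ℝ f) y := fun j y hy =>
    iteratedFDeriv_const_smul_apply' (((hfd.contDiffAt (isOpen_ball.mem_nhds hy))).of_le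
      (by exact_mod_cast le_top))
  have hexp : Real.exp (-L.χ * t) ≤ 1 := by
    rw [Real.exp_le_one_iff]
    have := L.χ_pos
    nlinarith
  have hb : ∀ j, ∀ y ∈ ball (0 : E2) 3,
      ‖iteratedFDeriv ℝ j (fun y => C⁻¹ • fderiv ℝ f y) y‖ ≤ C⁻¹ * max (Ck j) 0 := by
    intro j y hy
    rw [hder j y hy, norm_smul, norm_inv, Real.norm_eq_abs, abs_of_pos hC0,
      norm_iteratedFDeriv_fderiv]
    gcongr
    refine (hCk j x t ht y hy).trans ?_
    calc Ck j * Real.exp (-L.χ * t) ≤ max (Ck j) 0 * Real.exp (-L.χ * t) := by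
          gcongr
          exact le_max_left _ _
      _ ≤ max (Ck j) 0 * 1 := by gcongr
      _ = _ := mul_one _
  have hσ : 0 ≤ sg L c t x := sg_nonneg hK ht0 x
  have hρ : Real.exp (-a₂ * sg L c t x) ≤ 1 := by
    rw [Real.exp_le_one_iff]
    nlinarith
  have h1 := H E2 (E2 →L[ℝ] E2) (fun y => C⁻¹ • fderiv ℝ f y) hZ hb (Real.exp (-a₂ * sg L c t x))
    (Real.exp_pos _) hρ (fun y hy => by
      rw [norm_smul, norm_inv, Real.norm_eq_abs, abs_of_pos hC0, inv_mul_le_iff₀ hC0]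
      exact hC x t ht y hy) u hu
  rw [hder i u hu, norm_smul, norm_inv, Real.norm_eq_abs, abs_of_pos hC0,
    norm_iteratedFDeriv_fderiv, inv_mul_le_iff₀ hC0, ← Real.exp_mul] at h1
  have h2 : -a₂ * sg L c t x * (1 - ε) = -a * sg L c t x := by
    rw [hε]
    field_simp
    ring
  rw [h2] at h1
  calc _ ≤ C * (K * Real.exp (-a * sg L c t x)) := h1
    _ = _ := by ring

/-- **the rates with a clock in the charts**, from the rates of the unstable Jacobi tensor for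
large times -/
theorem lratesV_of (M : Metr L) (hK : Ok L c c₀ c₁) {a b sl T : ℝ} (ha : 0 < a) (hab : a ≤ b)
    (hp : b < 2 * a) (hsl : 0 < sl)
    (hr : ∀ t, T ≤ t → ∀ x v, Real.exp ((a + sl) * sg L c t x) * ‖v‖ ≤ ‖Dt L t x v‖ ∧
      ‖Dt L t x v‖ ≤ Real.exp ((b - sl) * sg L c t x) * ‖v‖) :
    LRatesV L (sg L c) a b c₀ c₁ := by
  obtain ⟨m, hm0, hm⟩ := U_bdd M
  have hz : ∀ x v, (0 : ℝ) * ‖v‖ ^ 2 ≤ inner ℝ (M.U x v) v := by
    intro x v
    rw [zero_mul]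
    rcases eq_or_ne v 0 with rfl | hv
    · simp
    · exact (M.U_pos x v hv).le
  have hb : 0 < b := ha.trans_le hab
  have ha₁ : 0 < a + sl := by linarith
  have hc₁ := hK.c₁_pos
  have hcen : ∀ z : X, ∀ s : ℝ, 0 ≤ s → ‖fderiv ℝ (L.τ (L.φ s z) z) 0‖ ≤
      Real.exp ((a + sl) * (c₁ * max T 0)) * Real.exp (-(a + sl) * sg L c s z) := by
    intro z s hs
    refine ContinuousLinearMap.opNorm_le_bound _ (by positivity) fun w => ?_
    have h1 : fderiv ℝ (L.τ (L.φ s z) z) 0 = Dt L (-s) (L.φ s z) := by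
      unfold Dt
      rw [L.φ_neg]
    have h2 := Dt_comp_neg L s (L.φ s z)
    rw [L.φ_neg] at h2
    have h3 : Dt L s z (fderiv ℝ (L.τ (L.φ s z) z) 0 w) = w := by
      rw [h1]
      exact DFunLike.congr_fun h2 w
    have hσ : 0 ≤ sg L c s z := sg_nonneg hK hs z
    rcases le_total T s with hT | hT
    · have h4 := (hr s hT z (fderiv ℝ (L.τ (L.φ s z) z) 0 w)).1
      rw [h3] at h4
      have h5 : Real.exp (-(a + sl) * sg L c s z) * Real.exp ((a + sl) * sg L c s z) = 1 := by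
        rw [← Real.exp_add, Real.exp_eq_one_iff]
        ring
      have h6 : (1 : ℝ) ≤ Real.exp ((a + sl) * (c₁ * max T 0)) :=
        Real.one_le_exp (mul_nonneg ha₁.le (mul_nonneg hc₁.le (le_max_right _ _)))
      calc ‖fderiv ℝ (L.τ (L.φ s z) z) 0 w‖
          = Real.exp (-(a + sl) * sg L c s z) *
              (Real.exp ((a + sl) * sg L c s z) * ‖fderiv ℝ (L.τ (L.φ s z) z) 0 w‖) := by
            rw [← mul_assoc, h5, one_mul]
        _ ≤ 1 * Real.exp (-(a + sl) * sg L c s z) * ‖w‖ := by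
            rw [one_mul]
            gcongr
        _ ≤ Real.exp ((a + sl) * (c₁ * max T 0)) * Real.exp (-(a + sl) * sg L c s z) * ‖w‖ := by
            gcongr
    · have h4 := Dt_ge M hz z hs (fderiv ℝ (L.τ (L.φ s z) z) 0 w)
      rw [h3, zero_mul, Real.exp_zero, one_mul] at h4
      have h6 : (1 : ℝ) ≤
          Real.exp ((a + sl) * (c₁ * max T 0)) * Real.exp (-(a + sl) * sg L c s z) := by
        rw [← Real.exp_add]
        refine Real.one_le_exp ?_
        have h7 : s ≤ max T 0 := hT.trans (le_max_left _ _)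
        have h8 := sg_hi hK hs z
        have h9 : c₁ * s ≤ c₁ * max T 0 := mul_le_mul_of_nonneg_left h7 hc₁.le
        nlinarith
      exact h4.trans (le_mul_of_one_le_left (norm_nonneg _) h6)
  refine ⟨ha, hab, hp, hK.pos, fun x t ht => sg_lo hK ht x, fun x t ht => sg_hi hK ht x,
    fun x s t => sg_add hK.cont s t x, fun k hk => ?_, Real.exp (m * max T 0), fun x t ht => ?_⟩
  · obtain ⟨C, hC0, hC⟩ := con_oneV hK (a₁ := a + sl) (a₂ := a + sl / 2) (by linarith)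
      (by linarith) (Real.exp_pos _).le hcen
    exact conV hK ha (by linarith) hC0 hC k hk
  · have ht0 : 0 ≤ t := L.t1_pos.le.trans ht
    have hσ : 0 ≤ sg L c t x := sg_nonneg hK ht0 x
    have h6 : (1 : ℝ) ≤ Real.exp (m * max T 0) :=
      Real.one_le_exp (mul_nonneg hm0 (le_max_right _ _))
    refine ContinuousLinearMap.opNorm_le_bound _ (by positivity) fun v => ?_
    rcases le_total T t with hT | hT
    · refine (hr t hT x v).2.trans ?_
      have h7 : Real.exp ((b - sl) * sg L c t x) ≤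
          Real.exp (m * max T 0) * Real.exp (b * sg L c t x) := by
        refine le_trans ?_ (le_mul_of_one_le_left (Real.exp_pos _).le h6)
        exact Real.exp_le_exp.2 (by nlinarith)
      gcongr
    · refine (Dt_le M hm x ht0 v).trans ?_
      have h7 : Real.exp (m * t) ≤ Real.exp (m * max T 0) * Real.exp (b * sg L c t x) := by
        rw [← Real.exp_add]
        refine Real.exp_le_exp.2 ?_
        have h8 : t ≤ max T 0 := hT.trans (le_max_left _ _)
        have h9 : 0 ≤ b * sg L c t x := by positivity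
        nlinarith
      gcongr

end Vale.Agent.P207.N4.H77V
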